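import Vale.Agent.P290.H580.Unif

/-! From local approximation to the Oka property; a countable cofinal family of compact convex
sets. -/

open Set Filter Metric
open scoped Topology Manifold ContDiff

namespace Vale.Agent.P290.H801

open Vale.Agent.P290 Vale.Agent.P290.K Vale.Agent.P290.H580

/-- In a finite dimensional space there is a countable family of compact convex sets which is
cofinal: between a compact convex set and a neighbourhood of it there is a member of the family. -/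
theorem exists_countable_good (V : Type) [NormedAddCommGroup V] [NormedSpace ℂ V]
    [FiniteDimensional ℂ V] : ∃ 𝒦 : ℕ → Set V, (∀ n, Good (𝒦 n)) ∧
      ∀ K U : Set V, Good K → IsOpen U → K ⊆ U → ∃ n, K ⊆ 𝒦 n ∧ 𝒦 n ⊆ U := by
  have : ProperSpace V := FiniteDimensional.proper ℂ V
  let B := TopologicalSpace.countableBasis V
  have hB : TopologicalSpace.IsTopologicalBasis B := TopologicalSpace.isBasis_countableBasis V
  have hBc : B.Countable := TopologicalSpace.countable_countableBasis V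
  let 𝒮 : Set (Set V) := {S | S = ∅ ∨ ∃ s ∈ {t : Set (Set V) | t.Finite ∧ t ⊆ B},
    Bornology.IsBounded (⋃₀ s) ∧ S = closure (convexHull ℝ (⋃₀ s))}
  have h𝒮 : 𝒮.Countable := by
    have h1 : {t : Set (Set V) | t.Finite ∧ t ⊆ B}.Countable :=
      Set.countable_ofPred_finite_subset hBc
    refine ((countable_singleton ∅).union
      (h1.image fun s => closure (convexHull ℝ (⋃₀ s)))).mono ?_
    rintro S (rfl | ⟨s, hs, -, rfl⟩)
    · exact Or.inl rfl
    · exact Or.inr ⟨s, hs, rfl⟩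
  obtain ⟨𝒦, h𝒦⟩ := h𝒮.exists_eq_range ⟨∅, Or.inl rfl⟩
  have hgood : ∀ S ∈ 𝒮, Good S := by
    rintro S (rfl | ⟨s, -, hb, rfl⟩)
    · exact ⟨isCompact_empty, convex_empty⟩
    · exact ⟨(isBounded_convexHull.2 hb).isCompact_closure, (convex_convexHull ℝ _).closure⟩
  refine ⟨𝒦, fun n => hgood _ (h𝒦 ▸ mem_range_self n), fun K U hK hU hKU => ?_⟩
  obtain ⟨δ, hδ, hδU⟩ := hK.1.exists_cthickening_subset_open hU hKU
  have h1 : K ⊆ thickening δ K := self_subset_thickening hδ K
  have h2 : ∀ x ∈ K, ∃ b ∈ B, x ∈ b ∧ b ⊆ thickening δ K := fun x hx =>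
    hB.exists_subset_of_mem_open (h1 hx) isOpen_thickening
  choose! b hbB hxb hbt using h2
  obtain ⟨t, htK, hcov⟩ := hK.1.elim_nhds_subcover b fun x hx =>
    (hB.isOpen (hbB x hx)).mem_nhds (hxb x hx)
  have hsub : ⋃₀ (b '' (t : Set V)) ⊆ thickening δ K := by
    rintro y ⟨_, ⟨x, hx, rfl⟩, hy⟩
    exact hbt x (htK x hx) hy
  have hbd : Bornology.IsBounded (⋃₀ (b '' (t : Set V))) := by
    refine (hK.1.isBounded.cthickening (δ := δ)).subset ?_
    exact hsub.trans (thickening_subset_cthickening δ K)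
  have hmem : closure (convexHull ℝ (⋃₀ (b '' (t : Set V)))) ∈ 𝒮 := by
    refine Or.inr ⟨b '' (t : Set V), ⟨t.finite_toSet.image b, ?_⟩, hbd, rfl⟩
    rintro _ ⟨x, hx, rfl⟩
    exact hbB x (htK x hx)
  rw [h𝒦] at hmem
  obtain ⟨n, hn⟩ := hmem
  refine ⟨n, ?_, ?_⟩
  · rw [hn]
    intro x hx
    obtain ⟨y, hy, hxy⟩ := mem_iUnion₂.1 (hcov hx)
    exact subset_closure (subset_convexHull ℝ _ ⟨b y, ⟨y, hy, rfl⟩, hxy⟩)
  · rw [hn]
    refine Subset.trans ?_ hδU
    refine closure_minimal ?_ isClosed_cthickening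
    exact convexHull_min (hsub.trans (thickening_subset_cthickening δ K)) (hK.2.cthickening δ)

/-- locally uniform limits of holomorphic maps with values in a surface -/
theorem mdiff_of_unif {V : Type} [NormedAddCommGroup V] [NormedSpace ℂ V]
    [FiniteDimensional ℂ V] {X : Type} [MetricSpace X] [ChartedSpace C2 X]
    [IsManifold 𝓘(ℂ, C2) 1 X] {U : Set V} (hU : IsOpen U) {f : ℕ → V → X} {F : V → X}
    (hf : ∀ᶠ n in atTop, ∀ z ∈ U, MDifferentiableAt 𝓘(ℂ, V) 𝓘(ℂ, C2) (f n) z)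
    (hF : TendstoUniformlyOn f F atTop U) :
    ∀ z ∈ U, MDifferentiableAt 𝓘(ℂ, V) 𝓘(ℂ, C2) F z := by
  have hFc : ContinuousOn F U := hF.continuousOn
    (hf.frequently.mono fun n hn z hz => (hn z hz).continuousAt.continuousWithinAt)
  intro z hz
  set e := chartAt C2 (F z) with he
  have hea : e ∈ atlas C2 X := chart_mem_atlas C2 (F z)
  have hes : F z ∈ e.source := mem_chart_source C2 (F z)
  obtain ⟨ρ, hρ, hρe⟩ := Metric.isOpen_iff.1 e.open_source (F z) hes
  have hFz : ContinuousAt F z := hFc.continuousAt (hU.mem_nhds hz)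
  -- a neighbourhood on which everything stays in the chart
  obtain ⟨r, hr, hrU⟩ := Metric.isOpen_iff.1 hU z hz
  obtain ⟨r', hr', hr'F⟩ := Metric.continuousAt_iff.1 hFz (ρ / 2) (by positivity)
  set W : Set V := ball z (min r r') with hW
  have hWU : W ⊆ U := (ball_subset_ball (min_le_left _ _)).trans hrU
  have hWF : ∀ y ∈ W, dist (F y) (F z) < ρ / 2 := fun y hy =>
    hr'F (ball_subset_ball (min_le_right _ _) hy)
  have hWe : ∀ y ∈ W, F y ∈ e.source := fun y hy => hρe (by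
    rw [mem_ball]; have := hWF y hy; linarith)
  have hWo : IsOpen W := isOpen_ball
  have hzW : z ∈ W := mem_ball_self (lt_min hr hr')
  have hsrc : ∀ᶠ n in atTop, ∀ y ∈ W, f n y ∈ e.source := by
    filter_upwards [(Metric.tendstoUniformlyOn_iff.1 hF) (ρ / 2) (by positivity)] with n hn y hy
    refine hρe ?_
    rw [mem_ball]
    have h1 := hn y (hWU hy)
    have h2 := hWF y hy
    calc dist (f n y) (F z) ≤ dist (f n y) (F y) + dist (F y) (F z) := dist_triangle _ _ _
      _ < ρ := by rw [dist_comm (f n y)]; linarith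
  have hloc : TendstoLocallyUniformlyOn (fun n y => e (f n y)) (fun y => e (F y)) atTop W := by
    rw [Metric.tendstoLocallyUniformlyOn_iff]
    intro ε hε w hw
    have hec : ContinuousAt e (F w) := e.continuousAt (hWe w hw)
    obtain ⟨η, hη, hηe⟩ := Metric.continuousAt_iff.1 hec (ε / 2) (by positivity)
    have hFw : ContinuousAt F w := hFc.continuousAt (hU.mem_nhds (hWU hw))
    have h1 : ∀ᶠ y in 𝓝 w, dist (F y) (F w) < η / 2 :=
      hFw (Metric.ball_mem_nhds _ (by positivity))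
    refine ⟨W ∩ {y | dist (F y) (F w) < η / 2}, inter_mem_nhdsWithin W h1, ?_⟩
    filter_upwards [(Metric.tendstoUniformlyOn_iff.1 hF) (η / 2) (by positivity)] with n hn y hy
    have h2 := hn y (hWU hy.1)
    have h3 : dist (F y) (F w) < η / 2 := hy.2
    have h4 : dist (e (F y)) (e (F w)) < ε / 2 := hηe (by linarith)
    have h5 : dist (e (f n y)) (e (F w)) < ε / 2 := hηe (by
      calc dist (f n y) (F w) ≤ dist (f n y) (F y) + dist (F y) (F w) := dist_triangle _ _ _
        _ < η := by rw [dist_comm (f n y)]; linarith)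
    calc dist (e (F y)) (e (f n y)) ≤ dist (e (F y)) (e (F w)) + dist (e (F w)) (e (f n y)) :=
          dist_triangle _ _ _
      _ < ε := by rw [dist_comm (e (F w))]; linarith
  have hd : DifferentiableOn ℂ (fun y => e (F y)) W :=
    differentiableOn_of_tendstoLocallyUniformlyOn hWo hloc (by
      filter_upwards [hf, hsrc] with n h1 h2 y hy
      exact (differentiableAt_chart_comp hea (h1 y (hWU hy)) (h2 y hy)).differentiableWithinAt)
  refine (mdifferentiableAt_iff F z).2 ⟨hFz, ?_⟩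
  simp only [writtenInExtChartAt, extChartAt, OpenPartialHomeomorph.extend,
    modelWithCornersSelf_partialEquiv, PartialEquiv.trans_refl,
    OpenPartialHomeomorph.toFun_eq_coe, OpenPartialHomeomorph.coe_toPartialEquiv_symm,
    modelWithCornersSelf_coe, range_id]
  exact (hd.differentiableAt (hWo.mem_nhds hzW)).differentiableWithinAt

/-- A compact surface such that maps near the members of a cofinal family of compact convex sets
can be approximated by maps near larger members of the family is Oka. -/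
theorem isOka_of_local {X : Type} [TopologicalSpace X] [ChartedSpace All.C2 X]
    [IsManifold 𝓘(ℂ, All.C2) ω X] [T2Space X] [CompactSpace X]
    (𝒦 : ∀ m : ℕ, Set (Set (Fin m → ℂ))) (h𝒦 : ∀ m, ∀ K ∈ 𝒦 m, Good K)
    (hcof : ∀ m (K U : Set (Fin m → ℂ)), Good K → IsOpen U → K ⊆ U →
      ∃ K1 ∈ 𝒦 m, K ⊆ K1 ∧ K1 ⊆ U)
    (h : ∀ m, ∀ K ∈ 𝒦 m, ∀ L ∈ 𝒦 m, K ⊆ L → ∀ f : (Fin m → ℂ) → X,
      (∀ᶠ z in 𝓝ˢ K, All.HolV f z) → ∀ d : X → X → ℝ,
      Continuous (fun p : X × X => d p.1 p.2) → (∀ x, d x x = 0) → ∀ ε > 0,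
      ∃ F : (Fin m → ℂ) → X, (∀ᶠ z in 𝓝ˢ L, All.HolV F z) ∧ ∀ z ∈ K, d (F z) (f z) < ε) :
    All.IsOka X := by
  intro m K U _ hK hKc hne hU hKU f hf d hd hd0 ε hε
  have : SecondCountableTopology X := ChartedSpace.secondCountable_of_sigmaCompact C2 X
  let _ : MetricSpace X := TopologicalSpace.metrizableSpaceMetric X
  have m1 : IsManifold 𝓘(ℂ, C2) 1 X := IsManifold.of_le (n := ω) le_top
  -- the tolerance
  obtain ⟨δ, hδ, hδd⟩ := unif_nbhd hK f (fun z hz => (hf z (hKU hz)).1)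
    {p : (Fin m → ℂ) × X | d p.2 (f p.1) < ε} (fun z hz => by
      have c1 : ContinuousAt (fun p : (Fin m → ℂ) × X => d p.2 (f p.1)) (z, f z) := by
        refine ContinuousAt.comp (g := fun q : X × X => d q.1 q.2)
          (f := fun p : (Fin m → ℂ) × X => (p.2, f p.1)) hd.continuousAt ?_
        refine continuous_snd.continuousAt.prodMk ?_
        exact ContinuousAt.comp (g := f) (f := Prod.fst) (hf z (hKU hz)).1
          continuous_fst.continuousAt
      refine c1.eventually_lt_const ?_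
      change d (f z) (f z) < ε
      rw [hd0]
      exact hε)
  obtain ⟨K0, hK0, hKK0, hK0U⟩ := hcof m K U ⟨hK, hKc⟩ hU hKU
  have hmet : Continuous (fun p : X × X => dist p.1 p.2) := continuous_dist
  have hf0 : ∀ᶠ z in 𝓝ˢ K0, All.HolV f z :=
    mem_nhdsSet_iff_exists.2 ⟨U, hU, hK0U, fun z hz => hf z hz⟩
  have hstep : ∀ (n : ℕ) (L : Set (Fin m → ℂ)), IsCompact L → ∃ L' ∈ 𝒦 m, L ⊆ L' ∧
      ball 0 (n : ℝ) ⊆ L' := by
    intro n L hL
    obtain ⟨R, hR⟩ := hL.isBounded.subset_closedBall (0 : Fin m → ℂ)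
    obtain ⟨L', h1, h2, -⟩ := hcof m (closedBall 0 (max R n)) univ
      ⟨isCompact_closedBall _ _, convex_closedBall _ _⟩ isOpen_univ (subset_univ _)
    exact ⟨L', h1, (hR.trans (closedBall_subset_closedBall (le_max_left _ _))).trans h2,
      (ball_subset_closedBall.trans (closedBall_subset_closedBall (le_max_right _ _))).trans h2⟩
  let P : ℕ → (Set (Fin m → ℂ) × ((Fin m → ℂ) → X)) → Prop := fun n a =>
    a.1 ∈ 𝒦 m ∧ (∀ᶠ z in 𝓝ˢ a.1, All.HolV a.2 z) ∧ K ⊆ a.1 ∧
      ball 0 (n : ℝ) ⊆ a.1 ∧ (n = 0 → a.2 = f)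
  let Q : ℕ → (Set (Fin m → ℂ) × ((Fin m → ℂ) → X)) → (Set (Fin m → ℂ) × ((Fin m → ℂ) → X)) →
      Prop := fun n a b => a.1 ⊆ b.1 ∧ ∀ z ∈ a.1, dist (b.2 z) (a.2 z) < δ / 2 * (1 / 2) ^ (n + 1)
  obtain ⟨a, haP, haQ⟩ := exists_seq_of_step (P := P) (Q := Q)
    ⟨(K0, f), hK0, hf0, hKK0, by simp, fun _ => rfl⟩ (by
      rintro n ⟨L, g⟩ ⟨h1, h2, h3, h4, h5⟩
      obtain ⟨L', k1, k2, k3⟩ := hstep (n + 1) L (h𝒦 m L h1).1
      obtain ⟨g', k4, k5⟩ := h m L h1 L' k1 k2 g h2 dist hmet dist_self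
        (δ / 2 * (1 / 2) ^ (n + 1)) (by positivity)
      exact ⟨(L', g'), ⟨k1, k4, h3.trans k2, k3, fun h => absurd h (Nat.succ_ne_zero n)⟩,
        k2, k5⟩)
  have hmono : ∀ i k, (a i).1 ⊆ (a (i + k)).1 := by
    intro i k
    induction k with
    | zero => exact Subset.rfl
    | succ k ih => exact ih.trans (haQ (i + k)).1
  have hest : ∀ i k, ∀ z ∈ (a i).1,
      dist ((a (i + k)).2 z) ((a i).2 z) ≤ δ / 2 * (1 / 2) ^ i - δ / 2 * (1 / 2) ^ (i + k) := by
    intro i k z hz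
    induction k with
    | zero => simp
    | succ k ih =>
      have q := (haQ (i + k)).2 z (hmono i k hz)
      have e : δ / 2 * (1 / 2 : ℝ) ^ (i + (k + 1)) = δ / 2 * (1 / 2) ^ (i + k + 1) := by
        rw [add_assoc]
      have e2 : δ / 2 * (1 / 2 : ℝ) ^ (i + k + 1) = δ / 2 * (1 / 2) ^ (i + k) / 2 := by
        rw [pow_succ]; ring
      calc dist ((a (i + (k + 1))).2 z) ((a i).2 z)
          ≤ dist ((a (i + (k + 1))).2 z) ((a (i + k)).2 z) +
            dist ((a (i + k)).2 z) ((a i).2 z) := dist_triangle _ _ _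
        _ ≤ δ / 2 * (1 / 2) ^ (i + k + 1) +
            (δ / 2 * (1 / 2) ^ i - δ / 2 * (1 / 2) ^ (i + k)) := add_le_add q.le ih
        _ = δ / 2 * (1 / 2) ^ i - δ / 2 * (1 / 2) ^ (i + (k + 1)) := by
            rw [e, e2]; ring
  have hest' : ∀ i n, i ≤ n → ∀ z ∈ (a i).1,
      dist ((a n).2 z) ((a i).2 z) ≤ δ / 2 * (1 / 2) ^ i := by
    intro i n hin z hz
    obtain ⟨k, rfl⟩ := Nat.exists_eq_add_of_le hin
    have h1 : 0 ≤ δ / 2 * (1 / 2 : ℝ) ^ (i + k) := by positivity
    linarith [hest i k z hz]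
  have hexh : ∀ z : Fin m → ℂ, ∃ i : ℕ, z ∈ ball (0 : Fin m → ℂ) i := by
    intro z
    obtain ⟨i, hi⟩ := exists_nat_gt ‖z‖
    exact ⟨i, by simpa using hi⟩
  have hgeo : Tendsto (fun n : ℕ => δ / 2 * (1 / 2 : ℝ) ^ n) atTop (𝓝 0) := by
    have h1 := (tendsto_pow_atTop_nhds_zero_of_lt_one (r := (1 / 2 : ℝ)) (by norm_num)
      (by norm_num)).const_mul (δ / 2)
    rwa [mul_zero] at h1
  have hball : ∀ i n : ℕ, i ≤ n → ball (0 : Fin m → ℂ) i ⊆ (a n).1 := fun i n hin =>
    (ball_subset_ball (by exact_mod_cast hin)).trans (haP n).2.2.2.1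
  have hlim : ∀ z, ∃ y, Tendsto (fun n => (a n).2 z) atTop (𝓝 y) := by
    intro z
    obtain ⟨i, hi⟩ := hexh z
    apply cauchySeq_tendsto_of_complete
    rw [Metric.cauchySeq_iff']
    intro e he
    obtain ⟨N, hN⟩ := (hgeo.eventually (gt_mem_nhds he)).exists_forall_of_atTop
    refine ⟨max N i, fun n hn => ?_⟩
    have h1 := hest' (max N i) n hn z (hball i _ (le_max_right _ _) hi)
    exact h1.trans_lt (hN _ (le_max_left _ _))
  choose F hF using hlim
  have hclose : ∀ i, ∀ z ∈ (a i).1, dist (F z) ((a i).2 z) ≤ δ / 2 * (1 / 2) ^ i := by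
    intro i z hz
    have h1 : Tendsto (fun n => dist ((a n).2 z) ((a i).2 z)) atTop
        (𝓝 (dist (F z) ((a i).2 z))) := (hF z).dist tendsto_const_nhds
    refine le_of_tendsto h1 ?_
    filter_upwards [eventually_ge_atTop i] with n hn using hest' i n hn z hz
  refine ⟨F, fun z => ?_, fun z hz => ?_⟩
  · obtain ⟨i, hi⟩ := hexh z
    refine All.HolV.of_md (mdiff_of_unif (f := fun n => (a n).2) isOpen_ball ?_ ?_ z hi)
    · filter_upwards [eventually_ge_atTop i] with n hn y hy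
      exact ((haP n).2.1.self_of_nhdsSet y (hball i n hn hy)).md
    · rw [Metric.tendstoUniformlyOn_iff]
      intro e he
      filter_upwards [hgeo.eventually (gt_mem_nhds he), eventually_ge_atTop i] with n hn hni y hy
      exact (hclose n y (hball i n hni hy)).trans_lt hn
  · refine hδd z hz (F z) ?_
    have h1 := hclose 0 z ((haP 0).2.2.1 hz)
    rw [(haP 0).2.2.2.2 rfl] at h1
    have h2 : δ / 2 * (1 / 2 : ℝ) ^ 0 < δ := by simp; linarith
    exact h1.trans_lt h2

end Vale.Agent.P290.H801
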